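import Vale.Agent.P328.Final

/-!
# P328: polynomial mixing of the row-pair chain when all row sums are at most `2`
-/

namespace Vale.Agent.Results.P328.RowSumsTwo

open Vale.Agent.P328

/-- All row sums at most `2`, column sums arbitrary: the row-pair resampling chain is within `ε` of the
uniform law on the tables after `(m (m - 1) / 2) (m n log (N + 1) + 2 log (1 / ε))` steps,
from every starting table, where `N` is the sum of the row sums. -/
theorem result {m n : ℕ} (hm : 2 ≤ m) (r : Fin m → ℕ) (c : Fin n → ℕ) (hr : ∀ i, r i ≤ 2)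
    (X : Tables r c) {ε : ℝ} (hε : 0 < ε) (t : ℕ)
    (ht : ((m : ℝ) * ((m : ℝ) - 1) / 2) *
        ((m : ℝ) * (n : ℝ) * Real.log (((∑ i, r i : ℕ) : ℝ) + 1) + 2 * Real.log (1 / ε)) ≤ (t : ℝ)) :
    (1 / 2) * ∑ Y, |(rowChain r c ^ t) X Y - 1 / (Fintype.card (Tables r c) : ℝ)| ≤ ε := by
  have hR : 2 ≤ Fintype.card (Fin m) := by simpa using hm
  refine rowChain_mixing hR (allThreeRow_small hr) X hε ?_
  refine le_trans ?_ ht
  simp only [Fintype.card_fin]
  have hm2 : (2 : ℝ) ≤ (m : ℝ) := by exact_mod_cast hm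
  have hpos : 0 ≤ (m : ℝ) * ((m : ℝ) - 1) / 2 := by
    have : 0 ≤ (m : ℝ) * ((m : ℝ) - 1) := by nlinarith
    linarith
  refine mul_le_mul_of_nonneg_left ?_ hpos
  have hcard := card_tables_le r c
  simp only [Fintype.card_fin] at hcard
  have hNpos : (0 : ℝ) < (Fintype.card (Tables r c) : ℝ) := by
    have : Nonempty (Tables r c) := ⟨X⟩
    exact_mod_cast Fintype.card_pos
  have hlog : Real.log (Fintype.card (Tables r c) : ℝ) ≤
      (m : ℝ) * (n : ℝ) * Real.log (((∑ i, r i : ℕ) : ℝ) + 1) := by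
    have h1 : (Fintype.card (Tables r c) : ℝ) ≤ (((∑ i, r i : ℕ) : ℝ) + 1) ^ (m * n) := by
      exact_mod_cast hcard
    have h2 := Real.log_le_log hNpos h1
    rw [Real.log_pow] at h2
    push_cast at h2 ⊢
    exact h2
  linarith

end Vale.Agent.Results.P328.RowSumsTwo
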